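import Vale.Agent.P121.Main

open MeasureTheory
open scoped ENNReal

namespace Vale.Agent.Results.P121.NoMonge

open Vale.Agent.P121 in
/-- There is an absolutely continuous Borel probability measure `μ` on `ℝ³` with finite
three-marginal Coulomb Kantorovich value that admits no optimal Monge plan. -/
theorem result : ∃ μ : Measure E3, IsProbabilityMeasure μ ∧ μ ≪ volume ∧
    kantorovich μ < ∞ ∧ ¬ ∃ T₂ T₃ : E3 → E3, IsOptimalMonge μ T₂ T₃ :=
  Vale.Agent.P121.counterexample

end Vale.Agent.Results.P121.NoMonge
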